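import Mathlib

/-!
P045 (Ryser): the inequality `τ ≤ (r - 1) ν` for `r`-uniform hypergraphs with few edges, with maximum
degree at most two or three, or with thick overlaps.  No `r`-partite structure is needed.
-/

namespace Vale.Agent.Results.P045.SparseOrThick

/-- every hypergraph has a cover with `2|C| ≤ |E| + ν` -/
theorem cover_half {V : Type} [DecidableEq V] (ν : ℕ) :
    ∀ (n : ℕ) (E : Finset (Finset V)), E.card = n → (∀ e ∈ E, e.Nonempty) →
    (∀ M ⊆ E, (∀ e ∈ M, ∀ f ∈ M, e ≠ f → Disjoint e f) → M.card ≤ ν) →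
    ∃ C : Finset V, (∀ e ∈ E, (e ∩ C).Nonempty) ∧ 2 * C.card ≤ E.card + ν := by
  intro n
  induction n using Nat.strong_induction_on with
  | _ n ih =>
    intro E hn hne hν
    by_cases hd : ∀ e ∈ E, ∀ f ∈ E, e ≠ f → Disjoint e f
    · have h1 : E.card ≤ ν := hν E (Finset.Subset.refl _) hd
      refine ⟨E.attach.image (fun e => (hne e.1 e.2).choose), ?_, ?_⟩
      · intro e he
        refine ⟨(hne e he).choose, Finset.mem_inter.2 ⟨(hne e he).choose_spec, ?_⟩⟩
        exact Finset.mem_image.2 ⟨⟨e, he⟩, Finset.mem_attach _ _, rfl⟩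
      · have : (E.attach.image (fun e => (hne e.1 e.2).choose)).card ≤ E.attach.card :=
          Finset.card_image_le
        rw [Finset.card_attach] at this
        omega
    · push Not at hd
      obtain ⟨e, he, f, hf, hef, hnd⟩ := hd
      rw [Finset.not_disjoint_iff] at hnd
      obtain ⟨v, hve, hvf⟩ := hnd
      have hf' : f ∈ E.erase e := Finset.mem_erase.2 ⟨hef.symm, hf⟩
      have hc1 : (E.erase e).card = E.card - 1 := Finset.card_erase_of_mem he
      have hc2 : ((E.erase e).erase f).card = (E.erase e).card - 1 := Finset.card_erase_of_mem hf'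
      have hpos : 2 ≤ E.card := by
        have : 0 < (E.erase e).card := Finset.card_pos.2 ⟨f, hf'⟩
        omega
      have hsub : (E.erase e).erase f ⊆ E :=
        (Finset.erase_subset _ _).trans (Finset.erase_subset _ _)
      obtain ⟨C, hC, hcard⟩ := ih ((E.erase e).erase f).card (by omega) ((E.erase e).erase f) rfl
        (fun x hx => hne x (hsub hx)) (fun M hM hMd => hν M (hM.trans hsub) hMd)
      refine ⟨insert v C, ?_, ?_⟩
      · intro x hx
        by_cases hxe : x = e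
        · subst hxe
          exact ⟨v, Finset.mem_inter.2 ⟨hve, Finset.mem_insert_self _ _⟩⟩
        by_cases hxf : x = f
        · subst hxf
          exact ⟨v, Finset.mem_inter.2 ⟨hvf, Finset.mem_insert_self _ _⟩⟩
        obtain ⟨w, hw⟩ := hC x (Finset.mem_erase.2 ⟨hxf, Finset.mem_erase.2 ⟨hxe, hx⟩⟩)
        rw [Finset.mem_inter] at hw
        exact ⟨w, Finset.mem_inter.2 ⟨hw.1, Finset.mem_insert_of_mem hw.2⟩⟩
      · have : (insert v C).card ≤ C.card + 1 := Finset.card_insert_le _ _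
        omega

/-- there is a maximal matching -/
theorem exists_max_matching {V : Type} [DecidableEq V] (E : Finset (Finset V)) :
    ∃ M ⊆ E, (∀ e ∈ M, ∀ f ∈ M, e ≠ f → Disjoint e f) ∧
      ∀ f ∈ E, f ∉ M → ∃ m ∈ M, ¬ Disjoint f m := by
  classical
  have hne : (E.powerset.filter
      (fun M => ∀ e ∈ M, ∀ f ∈ M, e ≠ f → Disjoint e f)).Nonempty :=
    ⟨∅, by simp⟩
  obtain ⟨M, hM, hmax⟩ := Finset.exists_max_image _ Finset.card hne
  rw [Finset.mem_filter, Finset.mem_powerset] at hM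
  refine ⟨M, hM.1, hM.2, ?_⟩
  intro f hf hfM
  by_contra hcon
  push Not at hcon
  have hins : insert f M ∈ E.powerset.filter
      (fun M => ∀ e ∈ M, ∀ f ∈ M, e ≠ f → Disjoint e f) := by
    rw [Finset.mem_filter, Finset.mem_powerset]
    refine ⟨Finset.insert_subset hf hM.1, ?_⟩
    intro a ha b hb hab
    rw [Finset.mem_insert] at ha hb
    rcases ha with rfl | ha <;> rcases hb with rfl | hb
    · exact absurd rfl hab
    · exact hcon b hb
    · exact (hcon a ha).symm
    · exact hM.2 a ha b hb hab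
  have := hmax _ hins
  rw [Finset.card_insert_of_notMem hfM] at this
  omega

/-- degree at most `d + 1`: `|E| ≤ (r d + 1) ν` -/
theorem count_deg {V : Type} [DecidableEq V] (r ν d : ℕ) (E : Finset (Finset V))
    (hunif : ∀ e ∈ E, e.card = r)
    (hdeg : ∀ v : V, (E.filter (fun e => v ∈ e)).card ≤ d + 1)
    (hν : ∀ M ⊆ E, (∀ e ∈ M, ∀ f ∈ M, e ≠ f → Disjoint e f) → M.card ≤ ν) :
    E.card ≤ (r * d + 1) * ν := by
  classical
  obtain ⟨M, hME, hMd, hmax⟩ := exists_max_matching E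
  have hMν : M.card ≤ ν := hν M hME hMd
  have hU : (M.biUnion id).card ≤ M.card * r := by
    calc (M.biUnion id).card ≤ ∑ m ∈ M, (id m).card := Finset.card_biUnion_le
      _ = ∑ m ∈ M, r := Finset.sum_congr rfl (fun m hm => hunif m (hME hm))
      _ = M.card * r := by simp
  have hsubU : E \ M ⊆ (M.biUnion id).biUnion (fun v => (E \ M).filter (fun e => v ∈ e)) := by
    intro f hf
    have hf' := Finset.mem_sdiff.1 hf
    obtain ⟨m, hm, hnd⟩ := hmax f hf'.1 hf'.2
    rw [Finset.not_disjoint_iff] at hnd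
    obtain ⟨v, hvf, hvm⟩ := hnd
    exact Finset.mem_biUnion.2 ⟨v, Finset.mem_biUnion.2 ⟨m, hm, hvm⟩,
      Finset.mem_filter.2 ⟨hf, hvf⟩⟩
  have hfib : ∀ v ∈ M.biUnion id, ((E \ M).filter (fun e => v ∈ e)).card ≤ d := by
    intro v hv
    obtain ⟨m, hm, hvm⟩ := Finset.mem_biUnion.1 hv
    simp only [id] at hvm
    have hnot : m ∉ (E \ M).filter (fun e => v ∈ e) := by
      intro h
      exact (Finset.mem_sdiff.1 (Finset.mem_filter.1 h).1).2 hm
    have hsub : insert m ((E \ M).filter (fun e => v ∈ e)) ⊆ E.filter (fun e => v ∈ e) := by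
      intro x hx
      rw [Finset.mem_insert] at hx
      rcases hx with rfl | hx
      · exact Finset.mem_filter.2 ⟨hME hm, hvm⟩
      · rw [Finset.mem_filter] at hx
        exact Finset.mem_filter.2 ⟨(Finset.mem_sdiff.1 hx.1).1, hx.2⟩
    have h1 := Finset.card_le_card hsub
    rw [Finset.card_insert_of_notMem hnot] at h1
    have := hdeg v
    omega
  have hinj : (E \ M).card ≤ (M.biUnion id).card * d := by
    calc (E \ M).card ≤ _ := Finset.card_le_card hsubU
      _ ≤ ∑ v ∈ M.biUnion id, ((E \ M).filter (fun e => v ∈ e)).card := Finset.card_biUnion_le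
      _ ≤ ∑ _v ∈ M.biUnion id, d := Finset.sum_le_sum hfib
      _ = (M.biUnion id).card * d := by simp
  have hsplit : E.card = (E \ M).card + M.card := by
    rw [Finset.card_sdiff_add_card_eq_card hME]
  calc E.card = (E \ M).card + M.card := hsplit
    _ ≤ (M.biUnion id).card * d + M.card := by omega
    _ ≤ (M.card * r) * d + M.card := by
        have := Nat.mul_le_mul_right d hU
        omega
    _ = (r * d + 1) * M.card := by ring
    _ ≤ (r * d + 1) * ν := Nat.mul_le_mul_left _ hMν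

/-- every `r`-uniform hypergraph has a cover with `6|C| ≤ 2|E| + (r+4) ν` -/
theorem cover_third {V : Type} [DecidableEq V] (r ν : ℕ) (hr : 1 ≤ r) :
    ∀ (n : ℕ) (E : Finset (Finset V)), E.card = n → (∀ e ∈ E, e.card = r) →
    (∀ M ⊆ E, (∀ e ∈ M, ∀ f ∈ M, e ≠ f → Disjoint e f) → M.card ≤ ν) →
    ∃ C : Finset V, (∀ e ∈ E, (e ∩ C).Nonempty) ∧ 6 * C.card ≤ 2 * E.card + (r + 4) * ν := by
  intro n
  induction n using Nat.strong_induction_on with
  | _ n ih =>
    intro E hn hunif hν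
    by_cases hd : ∀ v : V, (E.filter (fun e => v ∈ e)).card ≤ 2
    · obtain ⟨C, hC, hcard⟩ := cover_half ν E.card E rfl
        (fun e he => by rw [← Finset.card_pos, hunif e he]; omega) hν
      have hN := count_deg r ν 1 E hunif hd hν
      refine ⟨C, hC, ?_⟩
      have : (r + 4) * ν = (r * 1 + 1) * ν + 3 * ν := by ring
      omega
    · push Not at hd
      obtain ⟨v, hv⟩ := hd
      obtain ⟨T, hT, hT3⟩ := Finset.exists_subset_card_eq (s := E.filter (fun e => v ∈ e))
        (n := 3) (by omega)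
      have hTE : T ⊆ E := hT.trans (Finset.filter_subset _ _)
      have hc : (E \ T).card + 3 = E.card := by
        rw [← hT3]; exact Finset.card_sdiff_add_card_eq_card hTE
      obtain ⟨C, hC, hcard⟩ := ih (E \ T).card (by omega) (E \ T) rfl
        (fun x hx => hunif x (Finset.sdiff_subset hx))
        (fun M hM hMd => hν M (hM.trans Finset.sdiff_subset) hMd)
      refine ⟨insert v C, ?_, ?_⟩
      · intro x hx
        by_cases hxT : x ∈ T
        · exact ⟨v, Finset.mem_inter.2 ⟨(Finset.mem_filter.1 (hT hxT)).2,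
            Finset.mem_insert_self _ _⟩⟩
        · obtain ⟨w, hw⟩ := hC x (Finset.mem_sdiff.2 ⟨hx, hxT⟩)
          rw [Finset.mem_inter] at hw
          exact ⟨w, Finset.mem_inter.2 ⟨hw.1, Finset.mem_insert_of_mem hw.2⟩⟩
      · have : (insert v C).card ≤ C.card + 1 := Finset.card_insert_le _ _
        omega

/-- thick overlaps: any two edges that meet share at least two vertices -/
theorem cover_thick {V : Type} [DecidableEq V] (r ν : ℕ) (hr : 2 ≤ r) (E : Finset (Finset V))
    (hunif : ∀ e ∈ E, e.card = r)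
    (hthick : ∀ e ∈ E, ∀ f ∈ E, e ≠ f → ¬ Disjoint e f → 2 ≤ (e ∩ f).card)
    (hν : ∀ M ⊆ E, (∀ e ∈ M, ∀ f ∈ M, e ≠ f → Disjoint e f) → M.card ≤ ν) :
    ∃ C : Finset V, (∀ e ∈ E, (e ∩ C).Nonempty) ∧ C.card ≤ (r - 1) * ν := by
  classical
  obtain ⟨M, hME, hMd, hmax⟩ := exists_max_matching E
  have hMν : M.card ≤ ν := hν M hME hMd
  have hne : ∀ m ∈ M, m.Nonempty := by
    intro m hm
    rw [← Finset.card_pos, hunif m (hME hm)]
    omega
  -- remove one vertex from each edge of the matching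
  let g : Finset V → Finset V := fun m => if h : m.Nonempty then m.erase h.choose else m
  have hg : ∀ m ∈ M, (g m).card = r - 1 := by
    intro m hm
    simp only [g, dif_pos (hne m hm)]
    rw [Finset.card_erase_of_mem (hne m hm).choose_spec, hunif m (hME hm)]
  have hgsub : ∀ m ∈ M, ∀ S : Finset V, S ⊆ m → 2 ≤ S.card → (S ∩ g m).Nonempty := by
    intro m hm S hS hS2
    simp only [g, dif_pos (hne m hm)]
    obtain ⟨a, ha, b, hb, hab⟩ := Finset.one_lt_card.1 hS2
    by_cases hac : a = (hne m hm).choose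
    · refine ⟨b, Finset.mem_inter.2 ⟨hb, Finset.mem_erase.2 ⟨?_, hS hb⟩⟩⟩
      rw [← hac]; exact hab.symm
    · exact ⟨a, Finset.mem_inter.2 ⟨ha, Finset.mem_erase.2 ⟨hac, hS ha⟩⟩⟩
  refine ⟨M.biUnion g, ?_, ?_⟩
  · intro e he
    by_cases heM : e ∈ M
    · obtain ⟨w, hw⟩ := hgsub e heM e (Finset.Subset.refl _) (by rw [hunif e he]; exact hr)
      rw [Finset.mem_inter] at hw
      exact ⟨w, Finset.mem_inter.2 ⟨hw.1, Finset.mem_biUnion.2 ⟨e, heM, hw.2⟩⟩⟩
    · obtain ⟨m, hm, hnd⟩ := hmax e he heM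
      have hem : e ≠ m := by rintro rfl; exact heM hm
      have h2 := hthick e he m (hME hm) hem hnd
      obtain ⟨w, hw⟩ := hgsub m hm (e ∩ m) Finset.inter_subset_right h2
      rw [Finset.mem_inter, Finset.mem_inter] at hw
      exact ⟨w, Finset.mem_inter.2 ⟨hw.1.1, Finset.mem_biUnion.2 ⟨m, hm, hw.2⟩⟩⟩
  · calc (M.biUnion g).card ≤ ∑ m ∈ M, (g m).card := Finset.card_biUnion_le
      _ = ∑ m ∈ M, (r - 1) := Finset.sum_congr rfl hg
      _ = M.card * (r - 1) := by simp
      _ = (r - 1) * M.card := by ring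
      _ ≤ (r - 1) * ν := Nat.mul_le_mul_left _ hMν

theorem result (V : Type) [DecidableEq V] (r ν : ℕ) (E : Finset (Finset V))
    (hunif : ∀ e ∈ E, e.card = r)
    (hν : ∀ M ⊆ E, (∀ e ∈ M, ∀ f ∈ M, e ≠ f → Disjoint e f) → M.card ≤ ν) :
    (1 ≤ r → 2 * E.card + 10 * ν ≤ 5 * r * ν →
      ∃ C : Finset V, (∀ e ∈ E, (e ∩ C).Nonempty) ∧ C.card ≤ (r - 1) * ν) ∧
    (4 ≤ r → (∀ v : V, (E.filter (fun e => v ∈ e)).card ≤ 2) →
      ∃ C : Finset V, (∀ e ∈ E, (e ∩ C).Nonempty) ∧ C.card ≤ (r - 1) * ν ∧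
        2 * C.card ≤ (r + 2) * ν) ∧
    (12 ≤ r → (∀ v : V, (E.filter (fun e => v ∈ e)).card ≤ 3) →
      ∃ C : Finset V, (∀ e ∈ E, (e ∩ C).Nonempty) ∧ C.card ≤ (r - 1) * ν ∧
        6 * C.card ≤ (5 * r + 6) * ν) ∧
    (2 ≤ r → (∀ e ∈ E, ∀ f ∈ E, e ≠ f → ¬ Disjoint e f → 2 ≤ (e ∩ f).card) →
      ∃ C : Finset V, (∀ e ∈ E, (e ∩ C).Nonempty) ∧ C.card ≤ (r - 1) * ν) := by
  refine ⟨?_, ?_, ?_, ?_⟩
  · intro hr hN
    obtain ⟨C, hC, hcard⟩ := cover_third r ν hr E.card E rfl hunif hν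
    refine ⟨C, hC, ?_⟩
    obtain ⟨s, rfl⟩ : ∃ s, r = s + 1 := ⟨r - 1, by omega⟩
    have e1 : 5 * (s + 1) * ν = 5 * (s * ν) + 5 * ν := by ring
    have e2 : (s + 1 + 4) * ν = s * ν + 5 * ν := by ring
    have e3 : (s + 1 - 1) * ν = s * ν := by simp
    omega
  · intro hr hdeg
    obtain ⟨C, hC, hcard⟩ := cover_half ν E.card E rfl
      (fun e he => by rw [← Finset.card_pos, hunif e he]; omega) hν
    have hN := count_deg r ν 1 E hunif hdeg hν
    have h2 : 2 * C.card ≤ (r + 2) * ν := by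
      have : (r + 2) * ν = (r * 1 + 1) * ν + ν := by ring
      omega
    refine ⟨C, hC, ?_, h2⟩
    obtain ⟨s, rfl⟩ : ∃ s, r = s + 4 := ⟨r - 4, by omega⟩
    have e1 : (s + 4 + 2) * ν = s * ν + 6 * ν := by ring
    have e2 : (s + 4 - 1) * ν = s * ν + 3 * ν := by
      have : s + 4 - 1 = s + 3 := by omega
      rw [this]; ring
    omega
  · intro hr hdeg
    obtain ⟨C, hC, hcard⟩ := cover_third r ν (by omega) E.card E rfl hunif hν
    have hN := count_deg r ν 2 E hunif hdeg hν
    have h6 : 6 * C.card ≤ (5 * r + 6) * ν := by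
      have : (5 * r + 6) * ν = 2 * ((r * 2 + 1) * ν) + (r + 4) * ν := by ring
      omega
    refine ⟨C, hC, ?_, h6⟩
    obtain ⟨s, rfl⟩ : ∃ s, r = s + 12 := ⟨r - 12, by omega⟩
    have e1 : (5 * (s + 12) + 6) * ν = 5 * (s * ν) + 66 * ν := by ring
    have e2 : (s + 12 - 1) * ν = s * ν + 11 * ν := by
      have : s + 12 - 1 = s + 11 := by omega
      rw [this]; ring
    omega
  · intro hr hthick
    exact cover_thick r ν hr E hunif hthick hν

end Vale.Agent.Results.P045.SparseOrThick
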